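import Mathlib
import Vale.Agent.P025.R2.H816.J04
import Vale.Agent.P025.R2.H492.Ext3

/-!
# Density of good places (step (S3) of G-RNS)

`K / C` a function field over an algebraically closed ultrametric field of characteristic `0`,
`ψ`, `t₀` non-constant.  For every `c`, every dense set `A` of `C` and every finite set `S` of
places there is a place `P ∉ S` with `|t₀(P)| > |c|` at which `ψ` has a value in `A` and is
unramified.
-/

set_option linter.all false

namespace P025H670

open Vale.Agent.P019P IntermediateField Polynomial P025H492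

section alg

variable {k F : Type*} [Field k] [Field F] [Algebra k F] [CFF k F]

/-- an element of positive order or zero. -/
theorem mem_Mge_one {P : Plk k F} {z : F} (h : 0 < ord P z) : z ∈ Mge P 1 := Or.inr h

theorem pos_of_mem {P : Plk k F} {z : F} (h : z ∈ Mge P 1) (hz : z ≠ 0) : 0 < ord P z := by
  have := h.resolve_left hz
  omega

/-- a constant of positive order is zero. -/
theorem const_eq_zero {P : Plk k F} {a : k} (h : algebraMap k F a ∈ Mge P 1) : a = 0 := by
  by_contra ha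
  have h1 := pos_of_mem h ((_root_.map_ne_zero _).2 ha)
  rw [ord_const] at h1
  exact lt_irrefl _ h1

/-- the value of a polynomial. -/
theorem aeval_sub_mem {P : Plk k F} {x : F} {u : k} (hx : 0 < ord P (x - algebraMap k F u))
    (q : k[X]) : aeval x q - algebraMap k F (q.eval u) ∈ Mge P 1 := by
  obtain ⟨r, hr⟩ : (X - C u) ∣ q - C (q.eval u) := X_sub_C_dvd_sub_C_eval
  have h1 : aeval x (q - C (q.eval u)) = (x - algebraMap k F u) * aeval x r := by
    rw [hr, map_mul, map_sub, aeval_X, aeval_C]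
  rw [map_sub, aeval_C] at h1
  rw [h1]
  have hx0 : 0 ≤ ord P x := by
    by_cases hu : x = 0
    · rw [hu, ord_zero]
    · have h2 : x ∈ P.1 := by
        have h3 : x - algebraMap k F u ∈ P.1 := (mem_iff_ord _ _).2 (Or.inr hx.le)
        have h4 := P.1.add_mem _ _ h3 (P.2.1 u)
        rwa [sub_add_cancel] at h4
      exact ((mem_iff_ord _ _).1 h2).resolve_left hu
  have h5 := mul_mem_Mge (P := P) (mem_Mge_one hx) (COrd_aeval_mem hx0 r)
  rwa [add_zero] at h5

theorem aeval_mem_of_eval {P : Plk k F} {x : F} {u : k} (hx : 0 < ord P (x - algebraMap k F u))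
    {q : k[X]} (hq : q.eval u = 0) : aeval x q ∈ Mge P 1 := by
  have := aeval_sub_mem hx q
  rwa [hq, map_zero, sub_zero] at this

theorem ord_aeval_of_eval {P : Plk k F} {x : F} {u : k} (hx : 0 < ord P (x - algebraMap k F u))
    {q : k[X]} (hq : q.eval u ≠ 0) : aeval x q ≠ 0 ∧ ord P (aeval x q) = 0 := by
  have h := aeval_sub_mem hx q
  have h1 := ord_add_of_lt (P := P) (z := algebraMap k F (q.eval u))
    (w := aeval x q - algebraMap k F (q.eval u)) ((_root_.map_ne_zero _).2 hq)
    (by rw [ord_const, zero_add]; exact h)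
  rw [add_sub_cancel, ord_const] at h1
  exact h1

/-- two values of the same function at a place agree. -/
theorem value_unique {P : Plk k F} {x : F} {a b : k} (ha : 0 < ord P (x - algebraMap k F a))
    (hb : 0 < ord P (x - algebraMap k F b)) : a = b := by
  have h1 := (Mge P 1).sub_mem (mem_Mge_one hb) (mem_Mge_one ha)
  have h2 : algebraMap k F (a - b) ∈ Mge P 1 := by
    rw [map_sub]
    convert h1 using 1
    ring
  exact sub_eq_zero.1 (const_eq_zero h2)

/-- the value of a function with no pole. -/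
theorem exists_value {P : Plk k F} {x : F} (hx : ∀ a : k, x ≠ algebraMap k F a)
    (h : 0 ≤ ord P x) : ∃ a : k, 0 < ord P (x - algebraMap k F a) := by
  obtain ⟨a, ha⟩ := exists_cst P ((mem_iff_ord P x).2 (Or.inr h))
  exact ⟨a, ha.resolve_left (hx a)⟩

/-- the ramified values of a function are finite in number. -/
theorem ramified_finite [CharZero k] {x : F} (hx : ∀ a : k, x ≠ algebraMap k F a) :
    {u : k | ∃ P : Plk k F, 1 < ord P (x - algebraMap k F u)}.Finite := by
  classical
  haveI hfd := (finite_of_notMem hx).2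
  haveI : CharZero k⟮x⟯ := charZero_of_injective_algebraMap (algebraMap k k⟮x⟯).injective
  haveI : Algebra.IsSeparable k⟮x⟯ F := inferInstance
  obtain ⟨Δ, hΔ, -, hdvd⟩ := exists_disc hx
  refine (Δ.roots.toFinset.finite_toSet).subset ?_
  rintro u ⟨P, hP⟩
  rw [Finset.mem_coe, Multiset.mem_toFinset, mem_roots hΔ]
  have h1 := fib_sum hx u
  have hPm : P ∈ (fib_finite hx u).toFinset := by
    rw [Set.Finite.mem_toFinset]
    show (0 : ℤ) < ord P (x - algebraMap k F u)
    omega
  have h2 : ((fib_finite hx u).toFinset.card : ℤ) <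
      ∑ Q ∈ (fib_finite hx u).toFinset, ord Q (x - algebraMap k F u) := by
    rw [Finset.card_eq_sum_ones, Nat.cast_sum]
    refine Finset.sum_lt_sum (fun Q hQ => ?_) ⟨P, hPm, by push_cast; exact hP⟩
    rw [Set.Finite.mem_toFinset] at hQ
    have h3 : 0 < ord Q (x - algebraMap k F u) := hQ
    push_cast
    omega
  rw [h1] at h2
  have h4 : 1 ≤ Module.finrank k⟮x⟯ F - (fib_finite hx u).toFinset.card := by
    have : (fib_finite hx u).toFinset.card < Module.finrank k⟮x⟯ F := by exact_mod_cast h2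
    omega
  have h5 : (X - C u) ∣ Δ := ((dvd_pow_self _ (by omega)).trans (hdvd u))
  exact dvd_iff_isRoot.1 h5

end alg

section rel

variable {k F : Type*} [Field k] [Field F] [Algebra k F] [CFF k F]

theorem exists_frac {ψ : F} (f : k⟮ψ⟯) :
    ∃ r s : k[X], s ≠ 0 ∧ aeval ψ s * (f : F) = aeval ψ r := by
  obtain ⟨r, s, h⟩ := (mem_adjoin_simple_iff k (f : F)).1 f.2
  by_cases hs : aeval ψ s = 0
  · refine ⟨0, 1, one_ne_zero, ?_⟩
    rw [h, hs, div_zero, mul_zero, map_zero]
  · refine ⟨r, s, ?_, ?_⟩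
    · rintro rfl
      exact hs (map_zero _)
    · rw [h, mul_div_cancel₀ _ hs]

theorem exists_common {ψ : F} (f : ℕ → k⟮ψ⟯) (n : ℕ) :
    ∃ (q : k[X]) (G : ℕ → k[X]), q ≠ 0 ∧ ∀ i < n, aeval ψ q * (f i : F) = aeval ψ (G i) := by
  induction n with
  | zero => exact ⟨1, fun _ => 0, one_ne_zero, fun i hi => absurd hi (Nat.not_lt_zero i)⟩
  | succ n ih =>
    obtain ⟨q, G, hq, hG⟩ := ih
    obtain ⟨r, s, hs, hrs⟩ := exists_frac (f n)
    refine ⟨q * s, fun i => if i < n then G i * s else q * r, mul_ne_zero hq hs, fun i hi => ?_⟩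
    by_cases h : i < n
    · simp only [h, if_true, map_mul]
      rw [← hG i h]
      ring
    · have h1 : i = n := by omega
      subst h1
      simp only [lt_irrefl, if_false, map_mul]
      rw [← hrs]
      ring

/-- a polynomial relation between `t` and `ψ` all points of which come from places. -/
theorem exists_relation {ψ t : F} (hψ : ∀ a : k, ψ ≠ algebraMap k F a)
    (ht : ∀ a : k, t ≠ algebraMap k F a) :
    ∃ (n : ℕ) (G : ℕ → k[X]), 0 < n ∧ G n ≠ 0 ∧
      (∑ i ∈ Finset.range (n + 1), aeval ψ (G i) * t ^ i = 0) ∧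
      ∀ u τ : k, (G n).eval u ≠ 0 →
        ∑ i ∈ Finset.range (n + 1), (G i).eval u * τ ^ i = 0 →
        ∃ P : Plk k F, 0 < ord P (ψ - algebraMap k F u) ∧ 0 < ord P (t - algebraMap k F τ) := by
  classical
  obtain ⟨hψt, hfd⟩ := finite_of_notMem hψ
  let ψ0 : k⟮ψ⟯ := AdjoinSimple.gen k ψ
  have hψ0 : algebraMap k⟮ψ⟯ F ψ0 = ψ := AdjoinSimple.algebraMap_gen k ψ
  have hψ0t : Transcendental k ψ0 := by
    rw [← transcendental_algebraMap_iff (A := F) (algebraMap k⟮ψ⟯ F).injective, hψ0]
    exact hψt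
  haveI : CFF k k⟮ψ⟯ := cff_down (L := F) hψ0t
  have hψ0n : ∀ a : k, ψ0 ≠ algebraMap k k⟮ψ⟯ a := fun a h => hψ0t (h ▸ isAlgebraic_algebraMap a)
  let m := minpoly k⟮ψ⟯ t
  have hmi : IsIntegral k⟮ψ⟯ t := Algebra.IsIntegral.isIntegral t
  have hm : m.Monic := minpoly.monic hmi
  obtain ⟨q, G, hq, hG⟩ := exists_common (fun i => m.coeff i) (m.natDegree + 1)
  have hae : ∀ r : k[X], ((aeval ψ0 r : k⟮ψ⟯) : F) = aeval ψ r := by
    intro r
    have := (Polynomial.aeval_algebraMap_apply F ψ0 r)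
    rw [hψ0] at this
    exact this.symm
  have hG0 : ∀ i < m.natDegree + 1, aeval ψ0 q * m.coeff i = aeval ψ0 (G i) := by
    intro i hi
    apply Subtype.ext
    have h1 := hG i hi
    rw [← hae, ← hae] at h1
    exact h1
  have hGn : G m.natDegree = q := by
    have h1 := hG0 m.natDegree (Nat.lt_succ_self _)
    rw [hm.coeff_natDegree, mul_one] at h1
    exact ((transcendental_iff_injective.1 hψ0t) h1).symm
  refine ⟨m.natDegree, G, minpoly.natDegree_pos hmi, hGn ▸ hq, ?_, ?_⟩
  · have h1 : aeval t m = 0 := minpoly.aeval _ _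
    rw [aeval_eq_sum_range] at h1
    have h2 : ∑ i ∈ Finset.range (m.natDegree + 1), aeval ψ (G i) * t ^ i =
        aeval ψ q * ∑ i ∈ Finset.range (m.natDegree + 1), m.coeff i • t ^ i := by
      rw [Finset.mul_sum]
      refine Finset.sum_congr rfl fun i hi => ?_
      rw [← hG i (Finset.mem_range.1 hi), Algebra.smul_def, ← mul_assoc]
      rfl
    rw [h2, h1, mul_zero]
  · intro u τ hu hτ
    rw [hGn] at hu
    obtain ⟨P, hP⟩ := exists_zero (nc_sub hψ0n u)
    let g : k[X] := ∑ i ∈ Finset.range (m.natDegree + 1), G i * C (τ ^ i)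
    have hg : g.eval u = 0 := by
      rw [eval_finsetSum]
      rw [← hτ]
      exact Finset.sum_congr rfl fun i _ => by rw [eval_mul, eval_C]
    have hga : aeval ψ0 g = aeval ψ0 q * m.eval (algebraMap k k⟮ψ⟯ τ) := by
      rw [eval_eq_sum_range, Finset.mul_sum, map_sum]
      refine Finset.sum_congr rfl fun i hi => ?_
      rw [map_mul, aeval_C, ← hG0 i (Finset.mem_range.1 hi), map_pow, mul_assoc]
    have hmτ : m.eval (algebraMap k k⟮ψ⟯ τ) ≠ 0 := by
      intro h
      have h1 := minpoly.root hmi h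
      exact ht τ (by rw [← h1, ← IsScalarTower.algebraMap_apply])
    obtain ⟨hq0, hqo⟩ := ord_aeval_of_eval hP hu
    have h1 := aeval_mem_of_eval hP hg
    have h2 : 0 < ord P (m.eval (algebraMap k k⟮ψ⟯ τ)) := by
      have h3 := pos_of_mem h1 (by rw [hga]; exact mul_ne_zero hq0 hmτ)
      rw [hga, ord_mul P hq0 hmτ, hqo, zero_add] at h3
      exact h3
    let z : F := t - algebraMap k F τ
    have hz : z = t - algebraMap k⟮ψ⟯ F (algebraMap k k⟮ψ⟯ τ) := by
      rw [← IsScalarTower.algebraMap_apply]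
    have hmin : (minpoly k⟮ψ⟯ z).coeff 0 = m.eval (algebraMap k k⟮ψ⟯ τ) := by
      rw [hz, minpoly.sub_algebraMap, coeff_zero_eq_eval_zero, eval_comp]
      simp [m]
    have h4 := ord_norm_eq (L := F) P z
    rw [hmin, ord_norm P z] at h4
    have h5 : 0 < ∑ P' ∈ (over_finite (L := F) P).toFinset, ord P' z := by
      rw [h4]
      have : 0 < Module.finrank k⟮ψ⟯⟮z⟯ F := Module.finrank_pos
      positivity
    obtain ⟨P', hP', hpos⟩ := Finset.exists_lt_of_sum_lt (s := (over_finite (L := F) P).toFinset)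
      (f := fun _ => (0 : ℤ)) (g := fun P' => ord P' z) (by rw [Finset.sum_const_zero]; exact h5)
    rw [Set.Finite.mem_toFinset] at hP'
    have hP'' : down k⟮ψ⟯ P' = P := hP'
    refine ⟨P', ?_, hpos⟩
    have h6 := ord_algebraMap (K := k⟮ψ⟯) P' (ψ0 - algebraMap k k⟮ψ⟯ u)
    rw [map_sub, hψ0, ← IsScalarTower.algebraMap_apply, hP''] at h6
    rw [h6]
    have := ram_pos (K := k⟮ψ⟯) P'
    positivity

end rel

section root

variable {C : Type*} [NormedField C] [IsAlgClosed C]

theorem exists_root_near (h : C[X]) (τ0 : C) {δ : ℝ} (hδ : 0 ≤ δ)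
    (hh : ‖h.eval τ0‖ < ‖h.leadingCoeff‖ * δ ^ h.natDegree) :
    ∃ τ, h.eval τ = 0 ∧ ‖τ0 - τ‖ < δ := by
  by_contra hc
  push Not at hc
  have h0 : h ≠ 0 := by
    rintro rfl
    simp at hh
  have hs : h.Splits := IsAlgClosed.splits h
  have h1 : h.eval τ0 = h.leadingCoeff * (h.roots.map fun r => τ0 - r).prod := by
    conv_lhs => rw [hs.eq_prod_roots]
    rw [eval_mul, eval_C, eval_multiset_prod, Multiset.map_map]
    simp
  have h2 : δ ^ h.natDegree ≤ ‖(h.roots.map fun r => τ0 - r).prod‖ := by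
    have h3 : Multiset.card h.roots = h.natDegree := hs.natDegree_eq_card_roots.symm
    have h4 : ∀ s : Multiset C, (∀ r ∈ s, δ ≤ ‖τ0 - r‖) →
        δ ^ Multiset.card s ≤ ‖(s.map fun r => τ0 - r).prod‖ := by
      intro s
      induction s using Multiset.induction_on with
      | empty => intro _; simp
      | cons a s ih =>
        intro hs
        rw [Multiset.card_cons, Multiset.map_cons, Multiset.prod_cons, norm_mul, pow_succ,
          mul_comm]
        exact mul_le_mul (hs a (Multiset.mem_cons_self a s))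
          (ih fun r hr => hs r (Multiset.mem_cons_of_mem hr)) (by positivity) (norm_nonneg _)
    rw [← h3]
    refine h4 _ fun r hr => hc r ?_
    exact (mem_roots h0).1 hr
  rw [h1, norm_mul] at hh
  exact absurd hh (not_lt.2 (mul_le_mul_of_nonneg_left h2 (norm_nonneg _)))

end root

section main

variable {C K : Type*} [NontriviallyNormedField C] [IsUltrametricDist C] [CharZero C]
  [Field K] [Algebra C K] [CFF C K]

/-- DENSITY (step (S3) of G-RNS). -/
theorem exists_place_dense {ψ t0 : K} (hψ : ∀ a : C, ψ ≠ algebraMap C K a)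
    (ht : ∀ a : C, t0 ≠ algebraMap C K a) (c : C) {A : Set C} (hA : Dense A)
    {S : Set (Plk C K)} (hS : S.Finite) :
    ∃ P : Plk C K, P ∉ S ∧ (∃ a : C, ‖c‖ < ‖a‖ ∧ 0 < ord P (t0 - algebraMap C K a)) ∧
      ∃ u ∈ A, ord P (ψ - algebraMap C K u) = 1 := by
  classical
  haveI : IsAlgClosed C := CFF.ac (k := C) (F := K)
  obtain ⟨n, G, hn, hGn, hrel, hpl⟩ := exists_relation hψ ht
  -- values to avoid
  have hB1 : {u : C | ∃ P ∈ S, 0 < ord P (ψ - algebraMap C K u)}.Finite := by
    refine Set.Finite.subset (hS.biUnion (t := fun P => {u : C | 0 < ord P (ψ - algebraMap C K u)})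
      fun P _ => Set.Subsingleton.finite fun u hu v hv => value_unique hu hv) ?_
    rintro u ⟨P, hP, hu⟩
    exact Set.mem_biUnion hP hu
  have hB2 := ramified_finite (k := C) hψ
  -- a first place
  have hbad : ({P : Plk C K | ord P ψ < 0} ∪ {P : Plk C K | ∃ u, (G n).eval u = 0 ∧
      0 < ord P (ψ - algebraMap C K u)}).Finite := by
    refine Set.Finite.union ?_ ?_
    · refine (zeros_finite (nc_inv hψ)).subset fun P hP => ?_
      show 0 < ord P ψ⁻¹
      rw [ord_inv]
      have : ord P ψ < 0 := hP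
      omega
    · refine ((G n).roots.toFinset.finite_toSet.biUnion
        (t := fun u => {P : Plk C K | 0 < ord P (ψ - algebraMap C K u)})
        fun u _ => fib_finite hψ u).subset ?_
      rintro P ⟨u, hu, hP⟩
      refine Set.mem_biUnion (x := u) ?_ hP
      rw [Finset.mem_coe, Multiset.mem_toFinset, mem_roots hGn]
      exact hu
  obtain ⟨τ0, hτ0, P0, hP0, hP0b⟩ : ∃ τ0 : C, ‖c‖ < ‖τ0‖ ∧ ∃ P0 : Plk C K,
      0 < ord P0 (t0 - algebraMap C K τ0) ∧ P0 ∉ ({P : Plk C K | ord P ψ < 0} ∪
        {P : Plk C K | ∃ u, (G n).eval u = 0 ∧ 0 < ord P (ψ - algebraMap C K u)}) := by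
    by_contra hcon
    push Not at hcon
    obtain ⟨b, hb⟩ := NormedField.exists_lt_norm C (max ‖c‖ 1)
    have hb1 : 1 < ‖b‖ := lt_of_le_of_lt (le_max_right _ _) hb
    have hbc : ‖c‖ < ‖b‖ := lt_of_le_of_lt (le_max_left _ _) hb
    have h1 : ∀ i : ℕ, ‖c‖ < ‖b ^ (i + 1)‖ := by
      intro i
      rw [norm_pow]
      refine hbc.trans_le (le_self_pow₀ hb1.le (by omega))
    choose P hP using fun i : ℕ => exists_zero (nc_sub ht (b ^ (i + 1)))
    have h2 : Function.Injective P := by
      intro i j hij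
      have h3 : b ^ (i + 1) = b ^ (j + 1) := value_unique (hP i) (hij ▸ hP j)
      have h4 := congrArg norm h3
      rw [norm_pow, norm_pow] at h4
      have := pow_right_injective₀ (by positivity) hb1.ne' h4
      omega
    exact (Set.infinite_of_injective_forall_mem h2 fun i => hcon _ (h1 i) _ (hP i)) hbad
  rw [Set.mem_union, not_or] at hP0b
  obtain ⟨hψP, hGP⟩ := hP0b
  obtain ⟨u0, hu0⟩ := exists_value hψ (not_lt.1 hψP)
  have hq0 : (G n).eval u0 ≠ 0 := fun h => hGP ⟨u0, h, hu0⟩
  let g : C[X] := ∑ i ∈ Finset.range (n + 1), G i * Polynomial.C (τ0 ^ i)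
  have hge : ∀ u, g.eval u = ∑ i ∈ Finset.range (n + 1), (G i).eval u * τ0 ^ i := by
    intro u
    rw [eval_finsetSum]
    exact Finset.sum_congr rfl fun i _ => by rw [eval_mul, eval_C]
  have hg0 : g.eval u0 = 0 := by
    refine const_eq_zero (P := P0) (F := K) ?_
    have h1 : ∀ i, aeval ψ (G i) * t0 ^ i - algebraMap C K ((G i).eval u0 * τ0 ^ i) ∈
        Mge P0 1 := by
      intro i
      have h2 := aeval_sub_mem hu0 (G i)
      have h3 := aeval_sub_mem hP0 (X ^ i)
      rw [aeval_X_pow, eval_pow, eval_X] at h3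
      have h4 : (0 : ℤ) ≤ 0 := le_refl _
      have ht0 : t0 ^ i ∈ Mge P0 0 := by
        have h5 := (Mge P0 0).add_mem (Mge_mono P0 (by norm_num : (0 : ℤ) ≤ 1) h3)
          (show algebraMap C K (τ0 ^ i) ∈ Mge P0 0 from Or.inr (by rw [ord_const]))
        rwa [sub_add_cancel] at h5
      have h6 := mul_mem_Mge h2 ht0
      have h7 : algebraMap C K ((G i).eval u0) * (t0 ^ i - algebraMap C K (τ0 ^ i)) ∈
          Mge P0 (0 + 1) := mul_mem_Mge (show algebraMap C K ((G i).eval u0) ∈ Mge P0 0 from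
            Or.inr (by rw [ord_const])) h3
      rw [add_zero] at h6
      rw [zero_add] at h7
      have h8 := (Mge P0 1).add_mem h6 h7
      convert h8 using 1
      rw [map_mul]
      ring
    have h9 := (Mge P0 1).sum_mem (t := Finset.range (n + 1)) (fun i _ => h1 i)
    rw [Finset.sum_sub_distrib, hrel, zero_sub, ← map_sum, ← hge] at h9
    have h10 := (Mge P0 1).neg_mem h9
    rwa [neg_neg] at h10
  -- the good values `u`
  let δ : ℝ := ‖τ0‖
  have hδ : 0 < δ := lt_of_le_of_lt (norm_nonneg c) hτ0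
  have hU : {u : C | ‖g.eval u‖ < ‖(G n).eval u‖ * δ ^ n} ∈ nhds u0 := by
    refine IsOpen.mem_nhds (isOpen_lt (g.continuous.norm)
      ((G n).continuous.norm.mul continuous_const)) ?_
    show ‖g.eval u0‖ < ‖(G n).eval u0‖ * δ ^ n
    rw [hg0, norm_zero]
    have := norm_pos_iff.2 hq0
    positivity
  have hA' : Dense (A \ ({u : C | ∃ P ∈ S, 0 < ord P (ψ - algebraMap C K u)} ∪
      {u : C | ∃ P : Plk C K, 1 < ord P (ψ - algebraMap C K u)})) :=
    hA.diff_finite (hB1.union hB2)
  obtain ⟨u, huA, hu⟩ := hA'.inter_nhds_nonempty hU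
  have hu' : ‖g.eval u‖ < ‖(G n).eval u‖ * δ ^ n := hu
  obtain ⟨huA1, huB⟩ := huA
  rw [Set.mem_union, not_or] at huB
  have hqu : (G n).eval u ≠ 0 := by
    intro h
    rw [h, norm_zero, zero_mul] at hu'
    exact absurd hu' (not_lt.2 (norm_nonneg _))
  let hp : C[X] := ∑ i ∈ Finset.range (n + 1), Polynomial.C ((G i).eval u) * X ^ i
  have hpe : ∀ τ, hp.eval τ = ∑ i ∈ Finset.range (n + 1), (G i).eval u * τ ^ i := by
    intro τ
    rw [eval_finsetSum]
    exact Finset.sum_congr rfl fun i _ => by rw [eval_mul, eval_C, eval_pow, eval_X]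
  have hpc : hp.coeff n = (G n).eval u := by
    rw [finsetSum_coeff]
    rw [Finset.sum_eq_single n]
    · rw [coeff_C_mul, coeff_X_pow_self, mul_one]
    · intro i _ hi
      rw [coeff_C_mul, coeff_X_pow, if_neg (Ne.symm hi), mul_zero]
    · intro h
      exact absurd (Finset.mem_range.2 (Nat.lt_succ_self n)) h
  have hpd : hp.natDegree = n := by
    refine le_antisymm ?_ (le_natDegree_of_ne_zero (by rw [hpc]; exact hqu))
    refine natDegree_sum_le_of_forall_le _ _ fun i hi => ?_
    refine (natDegree_C_mul_X_pow_le _ _).trans ?_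
    have := Finset.mem_range.1 hi
    omega
  obtain ⟨τ, hτ, hττ⟩ := exists_root_near hp τ0 hδ.le (by
    rw [leadingCoeff, hpd, hpc, hpe, ← hge]
    exact hu')
  obtain ⟨P, hPψ, hPt⟩ := hpl u τ hqu (by rw [← hpe]; exact hτ)
  refine ⟨P, fun hPS => huB.1 ⟨P, hPS, hPψ⟩, ⟨τ, ?_, hPt⟩, u, huA1, ?_⟩
  · have h1 : ‖τ‖ = ‖τ0‖ := by
      have h2 : ‖τ0 - τ‖ < ‖τ0‖ := hττ
      rw [norm_sub_rev] at h2
      have h3 := IsUltrametricDist.norm_add_eq_max_of_norm_ne_norm (x := τ - τ0) (y := τ0) h2.ne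
      rw [sub_add_cancel, max_eq_right h2.le] at h3
      exact h3
    rw [h1]
    exact hτ0
  · have h1 : ¬ 1 < ord P (ψ - algebraMap C K u) := fun h => huB.2 ⟨P, h⟩
    omega

end main

end P025H670
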