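import Mathlib
import Vale.Agent.P025.R2.H492.Ext3
import Vale.Agent.P025.R2.H670.Density

/-!
# Orders of derivatives at a place

`K / k` function field over an algebraically closed field of characteristic `0`, `P` a place with
uniformizer `s`, `D` a nonzero `k`-derivation of `K`: `D s ≠ 0` and
`ord (D y) = ord y - 1 + ord (D s)` if `ord y ≠ 0`, `ord (D y) ≥ ord (D s)` if `ord y ≥ 0`.
-/

set_option linter.all false

namespace P025H670

open Vale.Agent.P019P IntermediateField Polynomial P025H492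

section

variable {k F : Type*} [Field k] [Field F] [Algebra k F] [CFF k F]

/-- a function with a single pole. -/
theorem exists_single_pole (P : Plk k F) : ∃ (z : F) (N : ℕ), 0 < N ∧ ord P z = -(N : ℤ) ∧
    (∀ a : k, z ≠ algebraMap k F a) ∧ Module.finrank k⟮z⟯ F = N := by
  obtain ⟨z, hz0, hz, hzP⟩ := exists_exact (D := Finsupp.single P (2 * (gen k F : ℤ) + 1)) P
    (by rw [dg_sgl]; omega)
  rw [Finsupp.single_eq_same] at hzP
  have hnc : ∀ a : k, z ≠ algebraMap k F a := nc_of_ord (P := P) (by omega)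
  have h1 := dg_pol hnc
  have hpole : ∀ Q : Plk k F, Q ≠ P → 0 ≤ ord Q z := by
    intro Q hQ
    have := hz Q
    rwa [Finsupp.single_eq_of_ne hQ, neg_zero] at this
  have h3 : dg (pol k z) = 2 * (gen k F : ℤ) + 1 := by
    rw [dg_eq_sum (S := {P})]
    · rw [Finset.sum_singleton, pol_apply, hzP, neg_neg]
      omega
    · intro Q hQ
      rw [Finset.mem_singleton] at hQ
      rw [pol_apply]
      have := hpole Q hQ
      omega
  refine ⟨z, 2 * gen k F + 1, by omega, by rw [hzP]; push_cast; ring, hnc, ?_⟩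
  rw [h1] at h3
  exact_mod_cast h3

/-- order of a polynomial at a pole. -/
theorem ord_aeval_pole {P : Plk k F} {z : F} (hz : ord P z < 0) {p : k[X]} (hp : p ≠ 0) :
    aeval z p ≠ 0 ∧ ord P (aeval z p) = p.natDegree * ord P z := by
  have hz0 : z ≠ 0 := by
    rintro rfl
    rw [ord_zero] at hz
    exact lt_irrefl _ hz
  have hterm : ∀ i, p.coeff i ≠ 0 → (p.coeff i • z ^ i : F) ≠ 0 ∧
      ord P (p.coeff i • z ^ i : F) = i * ord P z := by
    intro i hi
    have h1 : algebraMap k F (p.coeff i) ≠ 0 := (_root_.map_ne_zero _).2 hi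
    rw [Algebra.smul_def]
    refine ⟨mul_ne_zero h1 (pow_ne_zero _ hz0), ?_⟩
    rw [ord_mul P h1 (pow_ne_zero _ hz0), ord_const, ord_pow, zero_add]
  have hlc : p.coeff p.natDegree ≠ 0 := by
    rw [coeff_natDegree]
    exact leadingCoeff_ne_zero.2 hp
  obtain ⟨h1, h2⟩ := hterm _ hlc
  have h3 := ord_sum_of_lt (P := P) (s := Finset.range (p.natDegree + 1))
    (f := fun i => (p.coeff i • z ^ i : F)) (i := p.natDegree)
    (Finset.mem_range.2 (Nat.lt_succ_self _)) h1 (by
      intro j hj hjn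
      by_cases hc : p.coeff j = 0
      · left
        rw [hc, zero_smul]
      · right
        obtain ⟨-, h4⟩ := hterm j hc
        rw [h2, h4]
        have hj' : j < p.natDegree := by
          have := Finset.mem_range.1 hj
          omega
        have : (j : ℤ) + 1 ≤ p.natDegree := by exact_mod_cast hj'
        nlinarith)
  rw [← aeval_eq_sum_range] at h3
  exact ⟨h3.1, h3.2.trans h2⟩

theorem mem_Mge_self {P : Plk k F} (z : F) : z ∈ Mge P (ord P z) := Or.inr le_rfl

/-- orders of elements of `k(z)` at a pole of `z`. -/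
theorem ord_adjoin {P : Plk k F} {z : F} {N : ℕ} (hN : 0 < N) (hz : ord P z = -(N : ℤ))
    (c : k⟮z⟯) (hc : (c : F) ≠ 0) : ∃ j : ℤ, ord P (c : F) = N * j := by
  obtain ⟨r, s, hs, h⟩ := exists_frac (ψ := z) c
  have hzl : ord P z < 0 := by
    rw [hz]
    omega
  have h1 := ord_aeval_pole hzl hs
  have hr : r ≠ 0 := by
    rintro rfl
    rw [map_zero] at h
    exact (mul_ne_zero h1.1 hc) h
  have h2 := ord_aeval_pole hzl hr
  rw [← h, ord_mul P h1.1 hc, h1.2, hz] at h2
  refine ⟨s.natDegree - r.natDegree, ?_⟩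
  linear_combination h2.2

variable (D : Derivation k F F)

/-- derivatives of elements of `k(z)` at a pole of `z`. -/
theorem der_adjoin {P : Plk k F} {z : F} {N : ℕ} (hN : 0 < N) (hz : ord P z = -(N : ℤ))
    {d : ℤ} (hd : D z ∈ Mge P d) (c : k⟮z⟯) {n : ℤ} (hc : (c : F) ∈ Mge P n) :
    D (c : F) ∈ Mge P (n + N + d) := by
  by_cases hc0 : (c : F) = 0
  · rw [hc0, map_zero]
    exact Or.inl rfl
  have hn := hc.resolve_left hc0
  obtain ⟨r, s, hs, h⟩ := exists_frac (ψ := z) c
  have hzl : ord P z < 0 := by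
    rw [hz]
    omega
  have h1 := ord_aeval_pole hzl hs
  have hr : r ≠ 0 := by
    rintro rfl
    rw [map_zero] at h
    exact (mul_ne_zero h1.1 hc0) h
  have h2 := ord_aeval_pole hzl hr
  have hpoly : ∀ p : k[X], p ≠ 0 → D (aeval z p) ∈ Mge P (ord P (aeval z p) + N + d) := by
    intro p hp
    rw [Derivation.map_aeval, smul_eq_mul]
    refine mul_mem_Mge ?_ hd
    by_cases hp' : derivative p = 0
    · rw [hp', map_zero]
      exact Or.inl rfl
    · right
      rw [(ord_aeval_pole hzl hp).2, (ord_aeval_pole hzl hp').2, hz]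
      have h3 : (derivative p).natDegree < p.natDegree := natDegree_derivative_lt (by
        intro h4
        rw [eq_C_of_natDegree_eq_zero h4, derivative_C] at hp'
        exact hp' rfl)
      have h4 : ((derivative p).natDegree : ℤ) + 1 ≤ p.natDegree := by exact_mod_cast h3
      have h5 : (0 : ℤ) < N := by exact_mod_cast hN
      nlinarith
  have h3 : (c : F) = aeval z r / aeval z s := by
    rw [eq_div_iff h1.1, mul_comm]
    exact h
  have hord : ord P (aeval z r) = ord P (aeval z s) + ord P (c : F) := by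
    rw [← h, ord_mul P h1.1 hc0]
  rw [h3, Derivation.leibniz_div, smul_eq_mul, smul_eq_mul, smul_eq_mul]
  have h4 : (aeval z s)⁻¹ ^ 2 ∈ Mge P (-2 * ord P (aeval z s)) := by
    right
    rw [ord_pow, ord_inv]
    push_cast
    linarith
  have h5 : aeval z s * D (aeval z r) ∈ Mge P (ord P (aeval z s) +
      (ord P (aeval z r) + N + d)) := mul_mem_Mge (mem_Mge_self _) (hpoly r hr)
  have h6 : aeval z r * D (aeval z s) ∈ Mge P (ord P (aeval z r) +
      (ord P (aeval z s) + N + d)) := mul_mem_Mge (mem_Mge_self _) (hpoly s hs)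
  have h7 : ord P (aeval z r) + (ord P (aeval z s) + N + d) =
      ord P (aeval z s) + (ord P (aeval z r) + N + d) := by ring
  rw [h7] at h6
  have h8 := mul_mem_Mge h4 ((Mge P _).sub_mem h5 h6)
  refine Mge_mono P ?_ h8
  rw [hord]
  linarith

/-- orthogonality of `1, s, …, s^(N-1)` over `k(z)`. -/
theorem term_mem {P : Plk k F} {z s : F} {N : ℕ} (hN : 0 < N) (hz : ord P z = -(N : ℤ))
    (hs : ord P s = 1) (c : Fin N → k⟮z⟯) {n : ℤ}
    (h : ∑ i, (c i : F) * s ^ (i : ℕ) ∈ Mge P n) (i : Fin N) :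
    (c i : F) * s ^ (i : ℕ) ∈ Mge P n := by
  classical
  by_contra hi
  have hs0 : s ≠ 0 := by
    rintro rfl
    rw [ord_zero] at hs
    exact zero_ne_one hs
  have hi0 : (c i : F) * s ^ (i : ℕ) ≠ 0 := fun h0 => hi (Or.inl h0)
  have hio : ord P ((c i : F) * s ^ (i : ℕ)) < n := by
    by_contra h1
    exact hi (Or.inr (not_lt.1 h1))
  obtain ⟨i0, hi0m, hmin⟩ := Finset.exists_min_image
    (Finset.univ.filter fun j : Fin N => (c j : F) * s ^ (j : ℕ) ≠ 0)
    (fun j => ord P ((c j : F) * s ^ (j : ℕ))) ⟨i, by simpa using hi0⟩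
  rw [Finset.mem_filter] at hi0m
  have hcne : ∀ j : Fin N, (c j : F) * s ^ (j : ℕ) ≠ 0 → (c j : F) ≠ 0 := fun j hj h0 =>
    hj (by rw [h0, zero_mul])
  have hord : ∀ j : Fin N, (c j : F) * s ^ (j : ℕ) ≠ 0 → ∃ m : ℤ,
      ord P ((c j : F) * s ^ (j : ℕ)) = N * m + j := by
    intro j hj
    obtain ⟨m, hm⟩ := ord_adjoin hN hz (c j) (hcne j hj)
    refine ⟨m, ?_⟩
    rw [ord_mul P (hcne j hj) (pow_ne_zero _ hs0), hm, ord_pow, hs, mul_one]
  have hdist : ∀ j : Fin N, j ≠ i0 → (c j : F) * s ^ (j : ℕ) ∈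
      Mge P (ord P ((c i0 : F) * s ^ (i0 : ℕ)) + 1) := by
    intro j hj
    by_cases hj0 : (c j : F) * s ^ (j : ℕ) = 0
    · exact Or.inl hj0
    right
    have h1 := hmin j (by simpa using hj0)
    obtain ⟨m, hm⟩ := hord j hj0
    obtain ⟨m0, hm0⟩ := hord i0 hi0m.2
    have h2 : ord P ((c j : F) * s ^ (j : ℕ)) ≠ ord P ((c i0 : F) * s ^ (i0 : ℕ)) := by
      intro h3
      rw [hm, hm0] at h3
      have h4 := congrArg (fun x : ℤ => x % N) h3
      simp only [Int.mul_add_emod_self_left] at h4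
      rw [Int.emod_eq_of_lt (by positivity) (by exact_mod_cast j.2),
        Int.emod_eq_of_lt (by positivity) (by exact_mod_cast i0.2)] at h4
      exact hj (Fin.ext (by exact_mod_cast h4))
    have h5 : ord P ((c i0 : F) * s ^ (i0 : ℕ)) ≤ ord P ((c j : F) * s ^ (j : ℕ)) := h1
    omega
  have h3 := ord_sum_of_lt (P := P) (s := Finset.univ)
    (f := fun j : Fin N => (c j : F) * s ^ (j : ℕ)) (i := i0) (Finset.mem_univ _) hi0m.2
    fun j _ hj => hdist j hj
  have h4 := h.resolve_left h3.1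
  rw [h3.2] at h4
  have h5 : ord P ((c i0 : F) * s ^ (i0 : ℕ)) ≤ ord P ((c i : F) * s ^ (i : ℕ)) :=
    hmin i (by simpa using hi0)
  omega

/-- derivations are bounded at a place. -/
theorem exists_bound {P : Plk k F} {s : F} (hs : ord P s = 1) :
    ∃ M : ℤ, 1 - ord P (D s) ≤ M ∧ ∀ (n : ℤ) (y : F), y ∈ Mge P n → D y ∈ Mge P (n - M) := by
  classical
  obtain ⟨z, N, hN, hz, hnc, hfr⟩ := exists_single_pole P
  obtain ⟨-, hfd⟩ := finite_of_notMem hnc
  have hs0 : s ≠ 0 := by
    rintro rfl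
    rw [ord_zero] at hs
    exact zero_ne_one hs
  have hzero : ∀ c : Fin N → k⟮z⟯, ∑ i, (c i : F) * s ^ (i : ℕ) = 0 → ∀ i, c i = 0 := by
    intro c hc i
    by_contra hi
    have hi' : (c i : F) * s ^ (i : ℕ) ≠ 0 :=
      mul_ne_zero (fun h => hi (Subtype.ext h)) (pow_ne_zero _ hs0)
    have h1 := term_mem hN hz hs c (n := ord P ((c i : F) * s ^ (i : ℕ)) + 1)
      (by rw [hc]; exact Or.inl rfl) i
    have h2 := h1.resolve_left hi'
    omega
  have hli : LinearIndependent k⟮z⟯ (fun i : Fin N => s ^ (i : ℕ)) := by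
    rw [Fintype.linearIndependent_iff]
    intro c hc
    exact hzero c hc
  have hspan := hli.span_eq_top_of_card_eq_finrank' (by rw [Fintype.card_fin, hfr])
  have hrep : ∀ y : F, ∃ c : Fin N → k⟮z⟯, y = ∑ i, (c i : F) * s ^ (i : ℕ) := by
    intro y
    have hy : y ∈ Submodule.span k⟮z⟯ (Set.range fun i : Fin N => s ^ (i : ℕ)) := by
      rw [hspan]
      exact Submodule.mem_top
    obtain ⟨c, hc⟩ := (Submodule.mem_span_range_iff_exists_fun _).1 hy
    exact ⟨c, hc.symm⟩
  refine ⟨max (-N - ord P (D z)) (1 - ord P (D s)), le_max_right _ _, fun n y hy => ?_⟩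
  obtain ⟨c, rfl⟩ := hrep y
  rw [map_sum]
  refine (Mge P _).sum_mem fun i _ => ?_
  have hi := term_mem hN hz hs c hy i
  have hpow : s ^ (i : ℕ) ∈ Mge P (i : ℕ) := Or.inr (by rw [ord_pow, hs, mul_one])
  have hci : (c i : F) ∈ Mge P (n - (i : ℕ)) := by
    have h1 := mul_mem_Mge hi (show (s ^ (i : ℕ))⁻¹ ∈ Mge P (-(i : ℕ)) from
      Or.inr (by rw [ord_inv, ord_pow, hs, mul_one]))
    rw [mul_assoc, mul_inv_cancel₀ (pow_ne_zero _ hs0), mul_one] at h1
    exact h1
  rw [Derivation.leibniz, smul_eq_mul, smul_eq_mul, Derivation.leibniz_pow, smul_eq_mul,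
    nsmul_eq_mul]
  refine (Mge P _).add_mem ?_ ?_
  · rcases Nat.eq_zero_or_pos (i : ℕ) with h0 | hpos
    · rw [h0, Nat.cast_zero, zero_mul, mul_zero]
      exact Or.inl rfl
    · have h1 : s ^ ((i : ℕ) - 1) ∈ Mge P (((i : ℕ) - 1 : ℕ) : ℤ) :=
        Or.inr (by rw [ord_pow, hs, mul_one])
      have h2 : ((i : ℕ) : F) ∈ Mge P 0 := by
        have h3 : ((i : ℕ) : F) = algebraMap k F ((i : ℕ) : k) := by rw [map_natCast]
        rw [h3]
        exact Or.inr (by rw [ord_const])
      have h3 := mul_mem_Mge hci (mul_mem_Mge h2 (mul_mem_Mge h1 (mem_Mge_self (D s))))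
      refine Mge_mono P ?_ h3
      have h4 := le_max_right (-N - ord P (D z)) (1 - ord P (D s))
      push_cast [Nat.cast_sub hpos]
      omega
  · have h1 := mul_mem_Mge hpow (der_adjoin D hN hz (mem_Mge_self (D z)) (c i) hci)
    refine Mge_mono P ?_ h1
    have h4 := le_max_left (-N - ord P (D z)) (1 - ord P (D s))
    omega

/-- expansion of a derivative. -/
theorem der_expand {P : Plk k F} {s : F} (hs : ord P s = 1) {M : ℤ}
    (hM1 : 1 - ord P (D s) ≤ M) (hM : ∀ (n : ℤ) (y : F), y ∈ Mge P n → D y ∈ Mge P (n - M))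
    (m : ℤ) (j : ℕ) : ∀ y : F, y ∈ Mge P (m - j) → ∃ g : F, D y - g * D s ∈ Mge P (m - M) ∧
      g - ((m - j : ℤ) : F) * (y * s⁻¹) ∈ Mge P (m - j) := by
  have hs0 : s ≠ 0 := by
    rintro rfl
    rw [ord_zero] at hs
    exact zero_ne_one hs
  have hsi : s⁻¹ ∈ Mge P (-1) := Or.inr (by rw [ord_inv, hs])
  have hint : ∀ i : ℤ, (i : F) ∈ Mge P 0 := by
    intro i
    have h3 : (i : F) = algebraMap k F (i : k) := by rw [map_intCast]
    rw [h3]
    exact Or.inr (by rw [ord_const])
  induction j with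
  | zero =>
    intro y hy
    rw [Nat.cast_zero, sub_zero] at hy
    refine ⟨((m - (0 : ℕ) : ℤ) : F) * (y * s⁻¹), (Mge P _).sub_mem (hM _ _ hy) ?_, ?_⟩
    · have h1 := mul_mem_Mge (mul_mem_Mge (hint (m - (0 : ℕ))) (mul_mem_Mge hy hsi))
        (mem_Mge_self (D s))
      refine Mge_mono P ?_ h1
      omega
    · rw [sub_self]
      exact Or.inl rfl
  | succ j ih =>
    intro y hy
    set n : ℤ := m - ((j + 1 : ℕ) : ℤ) with hn
    have hsn : ord P (s ^ n) = n := by rw [ord_zpow, hs, mul_one]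
    have hsn0 : s ^ n ≠ 0 := zpow_ne_zero _ hs0
    obtain ⟨a, ha⟩ := exists_sub_mem hsn0 hsn hy
    have hn1 : n + 1 = m - j := by
      rw [hn]
      push_cast
      ring
    rw [hn1] at ha
    obtain ⟨g', hg1, hg2⟩ := ih _ ha
    have hyd : D (a • s ^ n) = a • ((n : F) * s ^ (n - 1) * D s) := by
      rw [Derivation.map_smul, Derivation.leibniz_zpow, zsmul_eq_mul, smul_eq_mul]
      ring_nf
    refine ⟨a • ((n : F) * s ^ (n - 1)) + g', ?_, ?_⟩
    · have h1 : D y - (a • ((n : F) * s ^ (n - 1)) + g') * D s =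
          D (y - a • s ^ n) - g' * D s := by
        rw [map_sub, hyd, add_mul, smul_mul_assoc]
        ring
      rw [h1]
      exact hg1
    · have hz1 : s ^ (n - 1) = s ^ n * s⁻¹ := by
        rw [zpow_sub₀ hs0, zpow_one, div_eq_mul_inv]
      have h1 : a • ((n : F) * s ^ (n - 1)) + g' - (n : F) * (y * s⁻¹) =
          g' - (n : F) * ((y - a • s ^ n) * s⁻¹) := by
        rw [hz1, Algebra.smul_def, Algebra.smul_def]
        ring
      rw [h1]
      have h2 : g' ∈ Mge P n := by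
        have h3 : ((m - j : ℤ) : F) * ((y - a • s ^ n) * s⁻¹) ∈ Mge P (0 + ((m - j) + (-1))) :=
          mul_mem_Mge (hint _) (mul_mem_Mge ha hsi)
        have h4 := (Mge P n).add_mem (Mge_mono P (show n ≤ m - j by omega) hg2)
          (Mge_mono P (show n ≤ 0 + ((m - j) + (-1)) by omega) h3)
        rwa [sub_add_cancel] at h4
      refine (Mge P n).sub_mem h2 ?_
      have h5 : (n : F) * ((y - a • s ^ n) * s⁻¹) ∈ Mge P (0 + ((m - j) + (-1))) :=
        mul_mem_Mge (hint _) (mul_mem_Mge ha hsi)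
      exact Mge_mono P (by omega) h5

theorem der_expand' {P : Plk k F} {s : F} (hs : ord P s = 1) {M : ℤ}
    (hM1 : 1 - ord P (D s) ≤ M) (hM : ∀ (n : ℤ) (y : F), y ∈ Mge P n → D y ∈ Mge P (n - M))
    {n m : ℤ} (hnm : n ≤ m) {y : F} (hy : y ∈ Mge P n) : ∃ g : F, D y - g * D s ∈ Mge P (m - M) ∧
      g - (n : F) * (y * s⁻¹) ∈ Mge P n := by
  obtain ⟨j, hj⟩ := Int.eq_ofNat_of_zero_le (sub_nonneg.2 hnm)
  have h1 : n = m - j := by omega
  have h2 := der_expand D hs hM1 hM m j y (by rw [← h1]; exact hy)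
  rw [← h1] at h2
  exact h2

variable {D} in
/-- a nonzero derivation does not kill a uniformizer. -/
theorem der_unif_ne_zero (hD : D ≠ 0) {P : Plk k F} {s : F} (hs : ord P s = 1) : D s ≠ 0 := by
  intro h0
  apply hD
  obtain ⟨M, hM1, hM⟩ := exists_bound D hs
  ext y
  rw [Derivation.coe_zero, Pi.zero_apply]
  by_contra hy
  set n := ord P y with hn
  set m := max n (ord P (D y) + 1 + M) with hm
  obtain ⟨g, h1, -⟩ := der_expand' D hs hM1 hM (le_max_left n (ord P (D y) + 1 + M))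
    (mem_Mge_self y)
  rw [h0, mul_zero, sub_zero] at h1
  have h2 := h1.resolve_left hy
  have h3 := le_max_right n (ord P (D y) + 1 + M)
  omega

variable {D} in
/-- derivatives of regular functions. -/
theorem der_regular (hD : D ≠ 0) {P : Plk k F} {s : F} (hs : ord P s = 1) {y : F}
    (hy : y ∈ Mge P 0) : D y ∈ Mge P (ord P (D s)) := by
  obtain ⟨M, hM1, hM⟩ := exists_bound D hs
  obtain ⟨g, h1, h2⟩ := der_expand' D hs hM1 hM (le_max_left 0 (ord P (D s) + M)) hy
  rw [Int.cast_zero, zero_mul, sub_zero] at h2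
  have h3 := mul_mem_Mge h2 (mem_Mge_self (D s))
  rw [zero_add] at h3
  have h4 := (Mge P (ord P (D s))).add_mem
    (Mge_mono P (show ord P (D s) ≤ max 0 (ord P (D s) + M) - M by
      have := le_max_right 0 (ord P (D s) + M)
      omega) h1) h3
  rwa [sub_add_cancel] at h4

variable {D} in
/-- the order of a derivative. -/
theorem ord_der [CharZero k] (hD : D ≠ 0) {P : Plk k F} {s : F} (hs : ord P s = 1) {y : F}
    (hy : ord P y ≠ 0) : D y ≠ 0 ∧ ord P (D y) = ord P y - 1 + ord P (D s) := by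
  have hDs := der_unif_ne_zero hD hs
  obtain ⟨M, hM1, hM⟩ := exists_bound D hs
  have hs0 : s ≠ 0 := by
    rintro rfl
    rw [ord_zero] at hs
    exact zero_ne_one hs
  have hy0 : y ≠ 0 := by
    rintro rfl
    exact hy (ord_zero P)
  set n := ord P y with hn
  obtain ⟨g, h1, h2⟩ := der_expand' D hs hM1 hM (le_max_left n (n + ord P (D s) + M))
    (mem_Mge_self y)
  have hnF : ((n : ℤ) : F) = algebraMap k F (n : k) := by rw [map_intCast]
  have hn0 : (n : k) ≠ 0 := by exact_mod_cast hy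
  have hnF0 : ((n : ℤ) : F) ≠ 0 := by
    rw [hnF]
    exact (_root_.map_ne_zero _).2 hn0
  have hl0 : (n : F) * (y * s⁻¹) ≠ 0 := mul_ne_zero hnF0 (mul_ne_zero hy0 (inv_ne_zero hs0))
  have hlo : ord P ((n : F) * (y * s⁻¹)) = n - 1 := by
    rw [ord_mul P hnF0 (mul_ne_zero hy0 (inv_ne_zero hs0)), hnF, ord_const,
      ord_mul P hy0 (inv_ne_zero hs0), ord_inv, hs, ← hn]
    ring
  have h3 := ord_add_of_lt (P := P) hl0 (w := g - (n : F) * (y * s⁻¹)) (by
    rw [hlo, sub_add_cancel]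
    exact h2)
  rw [add_sub_cancel, hlo] at h3
  have h4 : g * D s ≠ 0 := mul_ne_zero h3.1 hDs
  have h5 : ord P (g * D s) = n - 1 + ord P (D s) := by
    rw [ord_mul P h3.1 hDs, h3.2]
  have h6 := ord_add_of_lt (P := P) h4 (w := D y - g * D s) (by
    rw [h5]
    refine Mge_mono P ?_ h1
    have := le_max_right n (n + ord P (D s) + M)
    omega)
  rw [add_sub_cancel, h5] at h6
  exact h6

end

end P025H670
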