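import Mathlib
import Vale.Agent.P025.R2.H670.DerOrd

/-!
# The divisor of `dx` and zeros of differential forms
-/

set_option linter.all false

namespace P025H670

open Vale.Agent.P019P IntermediateField Polynomial P025H492

section

variable {k F : Type*} [Field k] [Field F] [Algebra k F] [CFF k F]

open Classical in
/-- the coefficient of the divisor of `dx`. -/
noncomputable def rx (x : F) (P : Plk k F) : ℤ :=
  if h : ∃ c : k, 0 < ord P (x - algebraMap k F c) then
    ord P (x - algebraMap k F h.choose) - 1 else ord P x - 1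

theorem rx_fin {x : F} {P : Plk k F} {c : k} (h : 0 < ord P (x - algebraMap k F c)) :
    rx x P = ord P (x - algebraMap k F c) - 1 := by
  have h1 : ∃ c : k, 0 < ord P (x - algebraMap k F c) := ⟨c, h⟩
  have h2 : h1.choose = c := value_unique h1.choose_spec h
  rw [rx, dif_pos h1, h2]

theorem rx_pole {x : F} {P : Plk k F} (h : ord P x < 0) : rx x P = ord P x - 1 := by
  rw [rx, dif_neg]
  rintro ⟨c, hc⟩
  have h1 : x - algebraMap k F c ∈ P.1 := (mem_iff_ord _ _).2 (Or.inr hc.le)
  have h2 := P.1.add_mem _ _ h1 (P.2.1 c)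
  rw [sub_add_cancel] at h2
  rcases (mem_iff_ord _ _).1 h2 with h3 | h3
  · rw [h3, ord_zero] at h
    exact lt_irrefl _ h
  · omega

theorem rx_finite [CharZero k] {x : F} (hx : ∀ a : k, x ≠ algebraMap k F a) :
    (Function.support (rx (k := k) x)).Finite := by
  have h1 : {P : Plk k F | ord P x < 0}.Finite := by
    refine (zeros_finite (nc_inv hx)).subset fun P hP => ?_
    show (0 : ℤ) < ord P x⁻¹
    rw [ord_inv]
    have : ord P x < 0 := hP
    omega
  have h2 := (ramified_finite (k := k) hx).biUnion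
    (t := fun u => {P : Plk k F | 0 < ord P (x - algebraMap k F u)}) fun u _ => fib_finite hx u
  refine (h1.union h2).subset fun P hP => ?_
  by_cases h : ord P x < 0
  · exact Or.inl h
  · right
    obtain ⟨c, hc⟩ := exists_value hx (not_lt.1 h)
    refine Set.mem_biUnion (x := c) ⟨P, ?_⟩ hc
    have h3 : rx x P ≠ 0 := hP
    rw [rx_fin hc] at h3
    omega

/-- the divisor of `dx`. -/
noncomputable def dvx [CharZero k] (x : F) (hx : ∀ a : k, x ≠ algebraMap k F a) : Plk k F →₀ ℤ :=
  Finsupp.ofSupportFinite (rx x) (rx_finite hx)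

theorem dvx_fin [CharZero k] {x : F} (hx : ∀ a : k, x ≠ algebraMap k F a) {P : Plk k F} {c : k}
    (h : 0 < ord P (x - algebraMap k F c)) : dvx x hx P = ord P (x - algebraMap k F c) - 1 :=
  rx_fin h

theorem dvx_pole [CharZero k] {x : F} (hx : ∀ a : k, x ≠ algebraMap k F a) {P : Plk k F}
    (h : ord P x < 0) : dvx x hx P = ord P x - 1 := rx_pole h

/-- local comparison of a derivation with `d/dx`. -/
theorem ord_der_unif [CharZero k] {x : F} (hx : ∀ a : k, x ≠ algebraMap k F a)
    {D : Derivation k F F} (hD : D ≠ 0) {P : Plk k F} {s : F} (hs : ord P s = 1) :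
    D x ≠ 0 ∧ ord P (D s) = ord P (D x) - dvx x hx P := by
  by_cases h : ord P x < 0
  · obtain ⟨h1, h2⟩ := ord_der hD hs h.ne
    refine ⟨h1, ?_⟩
    rw [dvx_pole hx h, h2]
    ring
  · obtain ⟨c, hc⟩ := exists_value hx (not_lt.1 h)
    obtain ⟨h1, h2⟩ := ord_der hD hs hc.ne'
    rw [map_sub, Derivation.map_algebraMap, sub_zero] at h1 h2
    refine ⟨h1, ?_⟩
    rw [dvx_fin hx hc, h2]
    ring

/-- a divisor with two independent functions has positive degree. -/
theorem one_le_dg {E : Plk k F →₀ ℤ} (h : 2 ≤ Module.finrank k (LL k E)) : 1 ≤ dg E := by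
  obtain ⟨P⟩ := nonempty_Plk k F
  have h1 : E - Finsupp.single P 1 ≤ E := by
    rw [sub_le_self_iff]
    exact Finsupp.single_nonneg.2 zero_le_one
  have h2 := l_sub_le h1
  have h3 : ¬ dg (E - Finsupp.single P 1) < 0 := by
    intro h4
    have h5 := l_eq_zero h4
    rw [h5, map_sub, dg_sgl] at h2
    omega
  rw [map_sub, dg_sgl] at h3
  omega

/-- (d3) every nonzero differential form has a zero, as soon as `l(div dx) ≥ 2`. -/
theorem exists_zero_form [CharZero k] {x : F} (hx : ∀ a : k, x ≠ algebraMap k F a)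
    (h2 : 2 ≤ Module.finrank k (LL k (dvx x hx))) {D : Derivation k F F} (hD : D ≠ 0) {θ : F}
    (hθ : θ ≠ 0) : ∃ P : Plk k F, ∀ s : F, ord P s = 1 → D s ≠ 0 ∧
      1 ≤ ord P θ - ord P (D s) := by
  by_contra hcon
  push Not at hcon
  have hDx : D x ≠ 0 := by
    obtain ⟨P⟩ := nonempty_Plk k F
    obtain ⟨s, -, hs⟩ := exists_unif P
    exact (ord_der_unif hx hD hs).1
  have h3 : dv k θ - dv k (D x) + dvx x hx ≤ 0 := by
    intro P
    obtain ⟨s, hs, hs2⟩ := hcon P
    have h4 := hs2 (der_unif_ne_zero hD hs)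
    have h5 := (ord_der_unif hx hD hs).2
    rw [Finsupp.add_apply, Finsupp.sub_apply, dv_apply, dv_apply, Finsupp.zero_apply]
    omega
  have h4 := dg_mono h3
  rw [map_add, map_sub, dg_dv, dg_dv, map_zero] at h4
  have h5 := one_le_dg h2
  omega

end

end P025H670
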